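import Vale.Agent.P329.Main

namespace Vale.Agent.Results.P329.Four
open Vale.Agent.P329

theorem result (α : Type) [Fintype α] (L : Language α) (hL : L.IsRegular) :
    ∃ e : GRE α, e.lang = L ∧ e.sh ≤ 4 := by
  obtain ⟨σ, _, A, rfl⟩ := hL
  let φ : α → Tr σ := fun a q => A.step q a
  have hφ : ∀ (w : List α) (q : σ), wv φ w q = A.evalFrom q w := by
    intro w
    induction w with
    | nil => intro q; rfl
    | cons a w ih => intro q; rw [wv_cons, Tr.mul_app, ih]; rfl
  have h := (HtC α 4).exG (fun f : Tr σ => f A.start ∈ A.accept) (fun f => {w | wv φ w = f})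
    (fun f _ => main_monoid α (Tr σ) φ f)
  obtain ⟨e, he, hs⟩ := h
  refine ⟨e, ?_, hs⟩
  ext w
  rw [he w, DFA.mem_accepts]
  constructor
  · rintro ⟨f, hf, rfl⟩
    rw [hφ] at hf; exact hf
  · intro hw
    exact ⟨wv φ w, by rw [hφ]; exact hw, rfl⟩

end Vale.Agent.Results.P329.Four
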